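import Vale.Agent.P154.Main
import Vale.Agent.P154.Cert4
import Vale.Agent.P154.J.All

namespace Vale.Agent.Results.P154.A_full

open Filter Topology Vale.Agent.P154

theorem result (q : ℕ) (lam : ℝ) (hq : (q = 3 ∧ -1 / 2 ≤ lam) ∨ (q = 4 ∧ 0 ≤ lam))
    (h1 : lam ≤ 1) :
    (∀ d : ℕ, 2 ≤ d →
      (Tendsto (adv q (regOff d) lam) atTop (𝓝 0) ↔ (d : ℝ) * lam ^ 2 ≤ 1) ∧
      ((∃ c : ℝ, 0 < c ∧ Tendsto (adv q (regOff d) lam) atTop (𝓝 c)) ↔ 1 < (d : ℝ) * lam ^ 2)) ∧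
    (∀ d : ℝ, 0 < d →
      (Tendsto (adv q (poiOff d) lam) atTop (𝓝 0) ↔ d * lam ^ 2 ≤ 1) ∧
      ((∃ c : ℝ, 0 < c ∧ Tendsto (adv q (poiOff d) lam) atTop (𝓝 c)) ↔ 1 < d * lam ^ 2)) := by
  rcases hq with ⟨rfl, h0⟩ | ⟨rfl, h0⟩
  · have h : Adm 3 lam := ⟨by push_cast; linarith, h1⟩
    rcases le_or_gt 0 lam with h2 | h2
    · exact ⟨fun d hd => assemble (by norm_num) (off_reg d) h (cert3.tendsto _ (reg_two hd) h h2),
        fun d hd => assemble (by norm_num) (off_poi hd.le) h (cert3.tendsto _ (poi_two hd) h h2)⟩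
    · exact ⟨fun d _ => assemble (by norm_num) (off_reg d) h (anti_reg reg_all h h2),
        fun d hd => assemble (by norm_num) (off_poi hd.le) h
          (anti_poi poi_all (by norm_num) hd.le h h2)⟩
  · have h : Adm 4 lam := ⟨by push_cast; linarith, h1⟩
    exact ⟨fun d hd => assemble (by norm_num) (off_reg d) h (cert4.tendsto _ (reg_two hd) h h0),
      fun d hd => assemble (by norm_num) (off_poi hd.le) h (cert4.tendsto _ (poi_two hd) h h0)⟩

end Vale.Agent.Results.P154.A_full
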