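import Vale.Agent.P154.Main
import Vale.Agent.P154.Cert4

namespace Vale.Agent.Results.P154.B_ferro

open Filter Topology Vale.Agent.P154

theorem result (q : ℕ) (hq : q = 3 ∨ q = 4) (lam : ℝ) (h0 : 0 ≤ lam) (h1 : lam ≤ 1) :
    (∀ d : ℕ, 2 ≤ d →
      (Tendsto (adv q (regOff d) lam) atTop (𝓝 0) ↔ (d : ℝ) * lam ^ 2 ≤ 1) ∧
      ((∃ c : ℝ, 0 < c ∧ Tendsto (adv q (regOff d) lam) atTop (𝓝 c)) ↔ 1 < (d : ℝ) * lam ^ 2)) ∧
    (∀ d : ℝ, 0 < d →
      (Tendsto (adv q (poiOff d) lam) atTop (𝓝 0) ↔ d * lam ^ 2 ≤ 1) ∧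
      ((∃ c : ℝ, 0 < c ∧ Tendsto (adv q (poiOff d) lam) atTop (𝓝 c)) ↔ 1 < d * lam ^ 2)) := by
  rcases hq with rfl | rfl
  · have h : Adm 3 lam := ⟨by push_cast; linarith, h1⟩
    exact ⟨fun d hd => assemble (by norm_num) (off_reg d) h (cert3.tendsto _ (reg_two hd) h h0),
      fun d hd => assemble (by norm_num) (off_poi hd.le) h (cert3.tendsto _ (poi_two hd) h h0)⟩
  · have h : Adm 4 lam := ⟨by push_cast; linarith, h1⟩
    exact ⟨fun d hd => assemble (by norm_num) (off_reg d) h (cert4.tendsto _ (reg_two hd) h h0),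
      fun d hd => assemble (by norm_num) (off_poi hd.le) h (cert4.tendsto _ (poi_two hd) h h0)⟩

end Vale.Agent.Results.P154.B_ferro
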